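import Vale.Agent.P199.XInner

namespace Vale.Agent.P199

open Finset Pointwise

variable {k D : Type*} [Field k] [DivisionRing D] [Algebra k D]

/-- A subalgebra `R` of `D` is locally finite-dimensional over `k`: every finite subset of `R`
generates a finite-dimensional subalgebra. -/
def LocFin (R : Subalgebra k D) : Prop :=
  ∀ T : Finset D, (T : Set D) ⊆ R → (Algebra.adjoin k (T : Set D)).toSubmodule.FG

lemma LocFin.mono {R R' : Subalgebra k D} (h : R ≤ R') (hR' : LocFin R') : LocFin R :=
  fun T hT => hR' T (fun _ hx => h (hT hx))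

/-- If `s R' s⁻¹ ⊆ R'` then the algebra generated by `R'` and `s` is contained in `R' * k[s]`. -/
lemma adjoin_le_mul (R' : Subalgebra k D) {s : D} (hs0 : s ≠ 0)
    (hn : ∀ x ∈ R', s * x * s⁻¹ ∈ R') :
    (Algebra.adjoin k ((R' : Set D) ∪ {s})).toSubmodule
      ≤ R'.toSubmodule * (Algebra.adjoin k {s}).toSubmodule := by
  set N := R'.toSubmodule * (Algebra.adjoin k {s}).toSubmodule with hN
  have hs_mem : s ∈ Algebra.adjoin k ({s} : Set D) := Algebra.subset_adjoin rfl
  have key : ∀ a ∈ Algebra.adjoin k ((R' : Set D) ∪ {s}), ∀ y ∈ N, a * y ∈ N := by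
    intro a ha
    induction ha using Algebra.adjoin_induction with
    | mem a ha =>
      intro y hy
      rcases ha with ha | ha
      · induction hy using Submodule.mul_induction_on' with
        | mem_mul_mem x hx q hq =>
          rw [← mul_assoc]
          exact Submodule.mul_mem_mul (R'.mul_mem ha hx) hq
        | add x _ y _ hx hy => rw [mul_add]; exact N.add_mem hx hy
      · rw [Set.mem_singleton_iff] at ha
        subst ha
        induction hy using Submodule.mul_induction_on' with
        | mem_mul_mem x hx q hq =>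
          have : a * (x * q) = (a * x * a⁻¹) * (a * q) := by
            rw [mul_assoc (a * x), ← mul_assoc a⁻¹, inv_mul_cancel₀ hs0, one_mul, mul_assoc]
          rw [this]
          exact Submodule.mul_mem_mul (hn x hx) ((Algebra.adjoin k {a}).mul_mem hs_mem hq)
        | add x _ y _ hx hy => rw [mul_add]; exact N.add_mem hx hy
    | algebraMap c =>
      intro y hy
      rw [← Algebra.smul_def]
      exact N.smul_mem c hy
    | add a b _ _ iha ihb =>
      intro y hy
      rw [add_mul]
      exact N.add_mem (iha y hy) (ihb y hy)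
    | mul a b _ _ iha ihb =>
      intro y hy
      rw [mul_assoc]
      exact iha _ (ihb y hy)
  intro a ha
  have h1 : (1 : D) ∈ N := by
    have := Submodule.mul_mem_mul (M := R'.toSubmodule)
      (N := (Algebra.adjoin k {s}).toSubmodule) R'.one_mem (Algebra.adjoin k {s}).one_mem
    simpa using this
  simpa using key a ha 1 h1

/-- **Cyclic normalising extensions preserve local finiteness.** -/
theorem locFin_adjoin (R : Subalgebra k D) (hinv : ∀ x ∈ R, x⁻¹ ∈ R) (hLF : LocFin R) {s : D}
    (hs0 : s ≠ 0) (hs : IsIntegral k s) (hn : ∀ x ∈ R, s * x * s⁻¹ ∈ R)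
    (hn' : ∀ x ∈ R, s⁻¹ * x * s ∈ R) :
    LocFin (Algebra.adjoin k ((R : Set D) ∪ {s})) := by
  classical
  obtain ⟨n, hn1, r, hrR, hr0, hr⟩ := xinner R hinv hs0 hs hn hn'
  intro T hT
  -- each `t ∈ T` lies in `span (X t * X' t)` with `X t ⊆ R`, `X' t ⊆ k[s]`
  have h1 : ∀ t ∈ T, ∃ X X' : Finset D, (X : Set D) ⊆ R.toSubmodule ∧
      (X' : Set D) ⊆ (Algebra.adjoin k {s}).toSubmodule ∧
      t ∈ Submodule.span k ((X : Set D) * (X' : Set D)) := by
    intro t ht
    exact Submodule.mem_span_mul_finite_of_mem_mul (adjoin_le_mul R hs0 hn (hT ht))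
  choose! X X' hX hX' htX using h1
  -- the finite generating set
  set X0 : Finset D := (T.biUnion X) ∪ {r, r⁻¹} with hX0
  have hX0R : ∀ x ∈ X0, x ∈ R := by
    intro x hx
    rw [hX0, Finset.mem_union, Finset.mem_biUnion] at hx
    rcases hx with ⟨t, ht, hx⟩ | hx
    · exact hX t ht hx
    · rw [Finset.mem_insert, Finset.mem_singleton] at hx
      rcases hx with rfl | rfl
      · exact hrR
      · exact hinv _ hrR
  set Y : Finset D := (Finset.range n).biUnion (fun j => X0.image (cj s j)) with hY
  have hYR : (Y : Set D) ⊆ R := by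
    intro y hy
    rw [hY, Finset.mem_coe, Finset.mem_biUnion] at hy
    obtain ⟨j, _, hy⟩ := hy
    rw [Finset.mem_image] at hy
    obtain ⟨x, hx, rfl⟩ := hy
    exact cj_mem hn j (hX0R x hx)
  set R1 := Algebra.adjoin k (Y : Set D) with hR1
  have hR1fg : R1.toSubmodule.FG := hLF Y hYR
  have hX0R1 : ∀ x ∈ X0, x ∈ R1 := by
    intro x hx
    apply Algebra.subset_adjoin
    rw [hY, Finset.mem_coe, Finset.mem_biUnion]
    exact ⟨0, Finset.mem_range.mpr (by omega), Finset.mem_image.mpr ⟨x, hx, cj_zero s x⟩⟩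
  have hR1n : ∀ x ∈ R1, s * x * s⁻¹ ∈ R1 := by
    intro x hx
    induction hx using Algebra.adjoin_induction with
    | mem y hy =>
      rw [hY, Finset.mem_coe, Finset.mem_biUnion] at hy
      obtain ⟨j, hj, hy⟩ := hy
      rw [Finset.mem_image] at hy
      obtain ⟨x, hx, rfl⟩ := hy
      rw [← cj_succ]
      rw [Finset.mem_range] at hj
      by_cases hjn : j + 1 < n
      · apply Algebra.subset_adjoin
        rw [hY, Finset.mem_coe, Finset.mem_biUnion]
        exact ⟨j + 1, Finset.mem_range.mpr hjn, Finset.mem_image.mpr ⟨x, hx, rfl⟩⟩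
      · have : j + 1 = n := by omega
        rw [this, hr x (hX0R x hx)]
        refine R1.mul_mem (R1.mul_mem (hX0R1 r ?_) (hX0R1 x hx)) (hX0R1 r⁻¹ ?_)
        · rw [hX0]; simp
        · rw [hX0]; simp
    | algebraMap c =>
      rw [← Algebra.commutes, mul_assoc, mul_inv_cancel₀ hs0, mul_one]
      exact R1.algebraMap_mem c
    | add a b _ _ iha ihb =>
      rw [mul_add, add_mul]
      exact R1.add_mem iha ihb
    | mul a b _ _ iha ihb =>
      have : s * (a * b) * s⁻¹ = (s * a * s⁻¹) * (s * b * s⁻¹) := by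
        rw [mul_assoc (s * a), ← mul_assoc s⁻¹, ← mul_assoc s⁻¹, inv_mul_cancel₀ hs0, one_mul]
        simp only [mul_assoc]
      rw [this]
      exact R1.mul_mem iha ihb
  have hfg : (R1.toSubmodule * (Algebra.adjoin k {s}).toSubmodule).FG :=
    hR1fg.mul hs.fg_adjoin_singleton
  refine hfg.of_le (le_trans ?_ (adjoin_le_mul R1 hs0 hR1n))
  have : Algebra.adjoin k (T : Set D) ≤ Algebra.adjoin k ((R1 : Set D) ∪ {s}) := by
    apply Algebra.adjoin_le
    intro t ht
    have h2 := htX t ht
    have h3 : Submodule.span k ((X t : Set D) * (X' t : Set D))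
        ≤ (Algebra.adjoin k ((R1 : Set D) ∪ {s})).toSubmodule := by
      rw [Submodule.span_le]
      rintro _ ⟨x, hx, q, hq, rfl⟩
      apply Subalgebra.mul_mem
      · apply Algebra.subset_adjoin
        left
        apply hX0R1
        rw [hX0, Finset.mem_union, Finset.mem_biUnion]
        exact Or.inl ⟨t, ht, hx⟩
      · exact Algebra.adjoin_mono (Set.subset_union_right) (hX' t ht hq)
    exact h3 h2
  exact this

end Vale.Agent.P199
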