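import Mathlib

namespace Vale.Agent.P199

universe u

/-- The class of *elementary amenable* groups (in Chou's description): the smallest class of groups
that contains all finite groups and all abelian groups and is closed under group extensions and
directed unions. -/
inductive ElemAmenable : (G : Type u) → [Group G] → Prop
  | of_finite (G : Type u) [Group G] [Finite G] : ElemAmenable G
  | of_comm (G : Type u) [Group G] (h : ∀ a b : G, a * b = b * a) : ElemAmenable G
  | of_ext (G : Type u) [Group G] (N : Subgroup G) [N.Normal]
      (hN : ElemAmenable N) (hQ : ElemAmenable (G ⧸ N)) : ElemAmenable G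
  | of_directed (G : Type u) [Group G] (ι : Type u) (H : ι → Subgroup G)
      (hd : Directed (· ≤ ·) H) (hU : ∀ g : G, ∃ i, g ∈ H i)
      (h : ∀ i, ElemAmenable (H i)) : ElemAmenable G

end Vale.Agent.P199
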