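import Vale.Agent.P199.FiniteExt
import Vale.Agent.P199.EADef

namespace Vale.Agent.P199

open Finset Pointwise
open scoped commutatorElement

universe u v w

variable {k : Type v} {D : Type w} [Field k] [DivisionRing D] [Algebra k D]

/-- `Q` is *good* if extensions by (subgroups of) `Q` preserve local finiteness. -/
def Good (k : Type v) (D : Type w) [Field k] [DivisionRing D] [Algebra k D]
    (Q : Type u) [Group Q] : Prop :=
  ∀ (G : Subgroup Dˣ) (φ : G →* Q), LocFin (galg k (φ.ker.map G.subtype)) → LocFin (galg k G)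

lemma mem_kermap {Q : Type u} [Group Q] {G : Subgroup Dˣ} (φ : G →* Q) {x : Dˣ} :
    x ∈ φ.ker.map G.subtype ↔ ∃ hx : x ∈ G, φ ⟨x, hx⟩ = 1 := by
  constructor
  · rintro ⟨⟨y, hy⟩, hy', rfl⟩
    exact ⟨hy, hy'⟩
  · rintro ⟨hx, h⟩
    exact ⟨⟨x, hx⟩, h, rfl⟩

lemma kermap_le {Q : Type u} [Group Q] {G : Subgroup Dˣ} (φ : G →* Q) :
    φ.ker.map G.subtype ≤ G := by
  intro x hx
  exact ((mem_kermap φ).mp hx).1

lemma good_of_comm [Algebra.IsAlgebraic k D] (Q : Type u) [Group Q]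
    (h : ∀ a b : Q, a * b = b * a) : Good k D Q := by
  intro G φ hH
  refine locFin_galg_abelian_ext (kermap_le φ) ?_ hH
  rw [Subgroup.commutator_le]
  intro a ha b hb
  rw [mem_kermap]
  refine ⟨G.mul_mem (G.mul_mem (G.mul_mem ha hb) (G.inv_mem ha)) (G.inv_mem hb), ?_⟩
  have : (⟨⁅a, b⁆, G.mul_mem (G.mul_mem (G.mul_mem ha hb) (G.inv_mem ha)) (G.inv_mem hb)⟩ : G)
      = (⟨a, ha⟩ : G) * ⟨b, hb⟩ * (⟨a, ha⟩ : G)⁻¹ * (⟨b, hb⟩ : G)⁻¹ := rfl
  rw [this, map_mul, map_mul, map_mul, map_inv, map_inv, h (φ ⟨a, ha⟩) (φ ⟨b, hb⟩)]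
  group

lemma good_of_finite (Q : Type u) [Group Q] [Finite Q] : Good k D Q := by
  classical
  intro G φ hH
  have := Fintype.ofFinite Q
  -- choose representatives
  have hrep : ∀ q : Q, ∃ e : Dˣ, e ∈ G ∧ ∀ g : G, φ g = q → ∃ he : e ∈ G, φ ⟨e, he⟩ = q := by
    intro q
    by_cases hq : ∃ g : G, φ g = q
    · obtain ⟨g, hg⟩ := hq
      exact ⟨g, g.2, fun _ _ => ⟨g.2, hg⟩⟩
    · exact ⟨1, G.one_mem, fun g hg => absurd ⟨g, hg⟩ hq⟩
  choose rep hrepG hrep' using hrep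
  refine locFin_galg_finite_ext (kermap_le φ) ?_ (Finset.univ.image rep) ?_ ?_ hH
  · intro g hg h hh
    rw [mem_kermap] at hh ⊢
    obtain ⟨hhG, hh1⟩ := hh
    refine ⟨G.mul_mem (G.mul_mem hg hhG) (G.inv_mem hg), ?_⟩
    have : (⟨g * h * g⁻¹, G.mul_mem (G.mul_mem hg hhG) (G.inv_mem hg)⟩ : G)
        = (⟨g, hg⟩ : G) * ⟨h, hhG⟩ * (⟨g, hg⟩ : G)⁻¹ := rfl
    rw [this, map_mul, map_mul, hh1, map_inv]
    group
  · intro e he
    rw [Finset.mem_image] at he
    obtain ⟨q, _, rfl⟩ := he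
    exact hrepG q
  · intro g hg
    refine ⟨rep (φ ⟨g, hg⟩), Finset.mem_image.mpr ⟨_, Finset.mem_univ _, rfl⟩, ?_⟩
    obtain ⟨he, heq⟩ := hrep' (φ ⟨g, hg⟩) ⟨g, hg⟩ rfl
    rw [mem_kermap]
    refine ⟨G.mul_mem hg (G.inv_mem he), ?_⟩
    have : (⟨g * (rep (φ ⟨g, hg⟩))⁻¹, G.mul_mem hg (G.inv_mem he)⟩ : G)
        = (⟨g, hg⟩ : G) * (⟨rep (φ ⟨g, hg⟩), he⟩ : G)⁻¹ := rfl
    rw [this, map_mul, map_inv, heq]
    group

/-- restriction of the situation to the preimage of a subgroup `M ≤ Q` -/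
lemma good_comap {Q : Type u} [Group Q] (M : Subgroup Q) (hM : Good k D M) (G : Subgroup Dˣ)
    (φ : G →* Q) (hH : LocFin (galg k (φ.ker.map G.subtype))) :
    LocFin (galg k ((M.comap φ).map G.subtype)) := by
  set G1 := (M.comap φ).map G.subtype with hG1
  have hG1G : G1 ≤ G := by
    rintro _ ⟨⟨y, hy⟩, _, rfl⟩
    exact hy
  have hG1M : ∀ x : G1, φ (Subgroup.inclusion hG1G x) ∈ M := by
    rintro ⟨_, ⟨⟨y, hy⟩, hy', rfl⟩⟩
    exact hy'
  let φ1 : G1 →* M := (φ.comp (Subgroup.inclusion hG1G)).codRestrict M hG1M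
  apply hM G1 φ1
  refine LocFin.mono (galg_mono ?_) hH
  intro x hx
  rw [mem_kermap] at hx ⊢
  obtain ⟨hx1, hx2⟩ := hx
  refine ⟨hG1G hx1, ?_⟩
  have := congrArg Subtype.val hx2
  exact this

lemma good_of_ext (Q : Type u) [Group Q] (N : Subgroup Q) [N.Normal] (hN : Good k D N)
    (hQ : Good k D (Q ⧸ N)) : Good k D Q := by
  intro G φ hH
  apply hQ G ((QuotientGroup.mk' N).comp φ)
  have : ((QuotientGroup.mk' N).comp φ).ker = N.comap φ := by
    rw [← MonoidHom.comap_ker, QuotientGroup.ker_mk']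
  rw [this]
  exact good_comap N hN G φ hH

lemma good_of_directed (Q : Type u) [Group Q] (ι : Type u) (H : ι → Subgroup Q)
    (hd : Directed (· ≤ ·) H) (hU : ∀ g : Q, ∃ i, g ∈ H i) (h : ∀ i, Good k D (H i)) :
    Good k D Q := by
  classical
  intro G φ hH
  apply locFin_galg_of_local
  intro E hE
  -- a single index works for all of `E`
  have key : ∀ E : Finset Dˣ, (E : Set Dˣ) ⊆ G →
      ∃ i, ∀ e, ∀ he : e ∈ G, e ∈ E → φ ⟨e, he⟩ ∈ H i := by
    intro E
    induction E using Finset.induction_on with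
    | empty =>
      intro _
      obtain ⟨i, _⟩ := hU 1
      exact ⟨i, fun e _ he => absurd he (by simp)⟩
    | insert g E _ ih =>
      intro hE
      have hgG : g ∈ G := hE (by simp)
      obtain ⟨i, hi⟩ := ih (fun x hx => hE (by simp [hx]))
      obtain ⟨j, hj⟩ := hU (φ ⟨g, hgG⟩)
      obtain ⟨l, hil, hjl⟩ := hd i j
      refine ⟨l, fun e he heE => ?_⟩
      rw [Finset.mem_insert] at heE
      rcases heE with rfl | heE
      · exact hjl hj
      · exact hil (hi e he heE)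
  obtain ⟨i, hi⟩ := key E hE
  refine ⟨((H i).comap φ).map G.subtype, ?_, good_comap (H i) (h i) G φ hH⟩
  intro e he
  exact ⟨⟨e, hE he⟩, hi e (hE he) he, rfl⟩

theorem good_of_elemAmenable [Algebra.IsAlgebraic k D] (Q : Type u) [Group Q]
    (hQ : ElemAmenable Q) : Good k D Q := by
  induction hQ with
  | of_finite G => exact good_of_finite G
  | of_comm G h => exact good_of_comm G h
  | of_ext G N _ _ ihN ihQ => exact good_of_ext G N ihN ihQ
  | of_directed G ι H hd hU _ ih => exact good_of_directed G ι H hd hU ih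

/-- **Elementary amenable subgroups of the unit group of an algebraic division algebra generate
locally finite-dimensional subalgebras.** -/
theorem locFin_galg_of_elemAmenable [Algebra.IsAlgebraic k D] (G : Subgroup Dˣ)
    (hG : ElemAmenable G) : LocFin (galg k G) := by
  apply good_of_elemAmenable G hG G (MonoidHom.id G)
  have : (MonoidHom.id G).ker = ⊥ := by
    ext x; simp
  rw [this, Subgroup.map_bot]
  exact locFin_galg_bot

end Vale.Agent.P199
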