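import Vale.Agent.P199.Solvable

namespace Vale.Agent.P199

open Finset Pointwise

variable {k D : Type*} [Field k] [DivisionRing D] [Algebra k D]

/-- If a finite set `E` of units normalises `R'` and is closed under products modulo `R'`, then the
algebra generated by `R'` and `E` is contained in `R' * span E`. -/
lemma adjoin_le_mul_span (R' : Subalgebra k D) (E : Finset Dˣ)
    (ha : ∀ e ∈ E, ∀ x ∈ R', (e : D) * x * (e : D)⁻¹ ∈ R')
    (hb : ∀ e ∈ E, ∀ e' ∈ E, ∃ e'' ∈ E, ∃ h ∈ R', (e : D) * (e' : D) = h * (e'' : D))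
    (hc : ∃ e ∈ E, ∃ h ∈ R', (1 : D) = h * (e : D)) :
    (Algebra.adjoin k ((R' : Set D) ∪ Units.val '' (E : Set Dˣ))).toSubmodule
      ≤ R'.toSubmodule * Submodule.span k (Units.val '' (E : Set Dˣ)) := by
  set N := R'.toSubmodule * Submodule.span k (Units.val '' (E : Set Dˣ)) with hN
  have hmem : ∀ x ∈ R', ∀ e ∈ E, x * (e : D) ∈ N := fun x hx e he =>
    Submodule.mul_mem_mul hx (Submodule.subset_span ⟨e, he, rfl⟩)
  -- `N` is spanned by the products `x * e`
  have hind : ∀ (a : D), (∀ x ∈ R', ∀ e ∈ E, a * (x * (e : D)) ∈ N) → ∀ y ∈ N, a * y ∈ N := by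
    intro a h y hy
    induction hy using Submodule.mul_induction_on' with
    | mem_mul_mem x hx q hq =>
      induction hq using Submodule.span_induction with
      | mem q hq =>
        obtain ⟨e, he, rfl⟩ := hq
        exact h x hx e he
      | zero => simp
      | add q q' _ _ ih ih' => rw [mul_add, mul_add]; exact N.add_mem ih ih'
      | smul c q _ ih =>
        rw [mul_smul_comm, mul_smul_comm]; exact N.smul_mem c ih
    | add x _ y _ hx hy => rw [mul_add]; exact N.add_mem hx hy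
  have key : ∀ a ∈ Algebra.adjoin k ((R' : Set D) ∪ Units.val '' (E : Set Dˣ)),
      ∀ y ∈ N, a * y ∈ N := by
    intro a ha'
    induction ha' using Algebra.adjoin_induction with
    | mem a ha' =>
      rcases ha' with ha' | ha'
      · apply hind
        intro x hx e he
        rw [← mul_assoc]
        exact hmem _ (R'.mul_mem ha' hx) e he
      · obtain ⟨e', he', rfl⟩ := ha'
        apply hind
        intro x hx e he
        obtain ⟨e'', he'', h, hh, heq⟩ := hb e' he' e he
        have : (e' : D) * (x * (e : D)) = ((e' : D) * x * (e' : D)⁻¹ * h) * (e'' : D) := by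
          rw [mul_assoc _ h, ← heq, mul_assoc ((e' : D) * x), ← mul_assoc (e' : D)⁻¹,
            inv_mul_cancel₀ e'.ne_zero, one_mul, mul_assoc]
        rw [this]
        exact hmem _ (R'.mul_mem (ha e' he' x hx) hh) e'' he''
    | algebraMap c =>
      intro y hy
      rw [← Algebra.smul_def]
      exact N.smul_mem c hy
    | add a b _ _ iha ihb =>
      intro y hy
      rw [add_mul]
      exact N.add_mem (iha y hy) (ihb y hy)
    | mul a b _ _ iha ihb =>
      intro y hy
      rw [mul_assoc]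
      exact iha _ (ihb y hy)
  intro a ha'
  have h1 : (1 : D) ∈ N := by
    obtain ⟨e, he, h, hh, heq⟩ := hc
    rw [heq]
    exact hmem h hh e he
  simpa using key a ha' 1 h1

/-- conjugation by a unit preserves a subalgebra as soon as it maps generators into it -/
lemma conj_adjoin_mem {Y : Set D} {R1 : Subalgebra k D} (g : Dˣ)
    (h : ∀ y ∈ Y, (g : D) * y * (g : D)⁻¹ ∈ R1) :
    ∀ x ∈ Algebra.adjoin k Y, (g : D) * x * (g : D)⁻¹ ∈ R1 := by
  have hg0 : (g : D) ≠ 0 := g.ne_zero
  intro x hx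
  induction hx using Algebra.adjoin_induction with
  | mem y hy => exact h y hy
  | algebraMap c =>
    rw [← Algebra.commutes, mul_assoc, mul_inv_cancel₀ hg0, mul_one]
    exact Subalgebra.algebraMap_mem _ c
  | add a b _ _ iha ihb =>
    rw [mul_add, add_mul]
    exact Subalgebra.add_mem _ iha ihb
  | mul a b _ _ iha ihb =>
    have : (g : D) * (a * b) * (g : D)⁻¹ = (g * a * (g : D)⁻¹) * (g * b * (g : D)⁻¹) := by
      rw [mul_assoc ((g : D) * a), ← mul_assoc (g : D)⁻¹, ← mul_assoc (g : D)⁻¹,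
        inv_mul_cancel₀ hg0, one_mul]
      simp only [mul_assoc]
    rw [this]
    exact Subalgebra.mul_mem _ iha ihb

/-- **Finite extensions preserve local finiteness.**  `H` is normalised by `G` and finitely many
cosets `H e`, `e ∈ E`, cover `G`. -/
theorem locFin_galg_finite_ext {H G : Subgroup Dˣ} (hHG : H ≤ G)
    (hnorm : ∀ g ∈ G, ∀ h ∈ H, g * h * g⁻¹ ∈ H) (E : Finset Dˣ) (hEG : ∀ e ∈ E, e ∈ G)
    (hcov : ∀ g ∈ G, ∃ e ∈ E, g * e⁻¹ ∈ H) (hH : LocFin (galg k H)) : LocFin (galg k G) := by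
  classical
  set R := galg k H with hR
  -- multiplication table
  have hb0 : ∀ e ∈ E, ∀ e' ∈ E, ∃ e'' ∈ E, ∃ h ∈ H, e * e' = h * e'' := by
    intro e he e' he'
    obtain ⟨e'', he'', hh⟩ := hcov (e * e') (G.mul_mem (hEG e he) (hEG e' he'))
    exact ⟨e'', he'', _, hh, by group⟩
  choose! m hmE hh hhH hmul using hb0
  obtain ⟨e1, he1, hh1⟩ := hcov 1 G.one_mem
  -- galg G ≤ R * span E
  have haR : ∀ e ∈ E, ∀ x ∈ R, (e : D) * x * (e : D)⁻¹ ∈ R :=
    fun e he => galg_conj (hnorm e (hEG e he))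
  have hbR : ∀ (R' : Subalgebra k D), (∀ e ∈ E, ∀ e' ∈ E, ((hh e e' : Dˣ) : D) ∈ R') →
      ∀ e ∈ E, ∀ e' ∈ E, ∃ e'' ∈ E, ∃ h ∈ R', (e : D) * (e' : D) = h * (e'' : D) := by
    intro R' hR' e he e' he'
    refine ⟨m e e', hmE e he e' he', _, hR' e he e' he', ?_⟩
    rw [← Units.val_mul, hmul e he e' he', Units.val_mul]
  have hcR : ∀ (R' : Subalgebra k D), (((1 * e1⁻¹ : Dˣ)) : D) ∈ R' →
      ∃ e ∈ E, ∃ h ∈ R', (1 : D) = h * (e : D) := by
    intro R' hR'
    refine ⟨e1, he1, _, hR', ?_⟩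
    rw [← Units.val_mul]; simp
  have hGle : (galg k G).toSubmodule
      ≤ R.toSubmodule * Submodule.span k (Units.val '' (E : Set Dˣ)) := by
    refine le_trans ?_ (adjoin_le_mul_span R E haR
      (hbR R fun e he e' he' => mem_galg (hhH e he e' he')) (hcR R (mem_galg hh1)))
    have : galg k G ≤ Algebra.adjoin k ((R : Set D) ∪ Units.val '' (E : Set Dˣ)) := by
      apply Algebra.adjoin_le
      rintro _ ⟨g, hg, rfl⟩
      obtain ⟨e, he, hge⟩ := hcov g hg
      have : (g : D) = ((g * e⁻¹ : Dˣ) : D) * (e : D) := by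
        rw [← Units.val_mul]; simp
      rw [this]
      apply Subalgebra.mul_mem
      · exact Algebra.subset_adjoin (Or.inl (mem_galg hge))
      · exact Algebra.subset_adjoin (Or.inr ⟨e, he, rfl⟩)
    exact this
  intro T hT
  have h1 : ∀ t ∈ T, ∃ X X' : Finset D, (X : Set D) ⊆ R.toSubmodule ∧
      (X' : Set D) ⊆ Submodule.span k (Units.val '' (E : Set Dˣ)) ∧
      t ∈ Submodule.span k ((X : Set D) * (X' : Set D)) := by
    intro t ht
    exact Submodule.mem_span_mul_finite_of_mem_mul (hGle (hT ht))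
  choose! X X' hX hX' htX using h1
  -- the units that we need
  set U : Finset Dˣ := ((E ×ˢ E).image fun p => hh p.1 p.2) ∪
    ((E ×ˢ E).image fun p => (hh p.1 p.2)⁻¹) ∪ {1 * e1⁻¹} with hU
  have hUH : ∀ u ∈ U, u ∈ H := by
    intro u hu
    rw [hU, Finset.mem_union, Finset.mem_union, Finset.mem_image, Finset.mem_image] at hu
    rcases hu with (⟨p, hp, rfl⟩ | ⟨p, hp, rfl⟩) | hu
    · rw [Finset.mem_product] at hp; exact hhH _ hp.1 _ hp.2
    · rw [Finset.mem_product] at hp; exact H.inv_mem (hhH _ hp.1 _ hp.2)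
    · rw [Finset.mem_singleton] at hu; rw [hu]; exact hh1
  set X0 : Finset D := (T.biUnion X) ∪ U.image Units.val with hX0
  have hX0R : ∀ x ∈ X0, x ∈ R := by
    intro x hx
    rw [hX0, Finset.mem_union, Finset.mem_biUnion, Finset.mem_image] at hx
    rcases hx with ⟨t, ht, hx⟩ | ⟨u, hu, rfl⟩
    · exact hX t ht hx
    · exact mem_galg (hUH u hu)
  set Y : Finset D := X0 ∪ E.biUnion (fun e => X0.image fun x => (e : D) * x * (e : D)⁻¹) with hY
  have hYR : (Y : Set D) ⊆ R := by
    intro y hy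
    rw [hY, Finset.mem_coe, Finset.mem_union, Finset.mem_biUnion] at hy
    rcases hy with hy | ⟨e, he, hy⟩
    · exact hX0R y hy
    · rw [Finset.mem_image] at hy
      obtain ⟨x, hx, rfl⟩ := hy
      exact haR e he x (hX0R x hx)
  set R1 := Algebra.adjoin k (Y : Set D) with hR1
  have hR1fg : R1.toSubmodule.FG := hH Y hYR
  have hX0R1 : ∀ x ∈ X0, x ∈ R1 := by
    intro x hx
    apply Algebra.subset_adjoin
    rw [hY, Finset.mem_coe, Finset.mem_union]
    exact Or.inl hx
  have hcjR1 : ∀ e ∈ E, ∀ x ∈ X0, (e : D) * x * (e : D)⁻¹ ∈ R1 := by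
    intro e he x hx
    apply Algebra.subset_adjoin
    rw [hY, Finset.mem_coe, Finset.mem_union, Finset.mem_biUnion]
    exact Or.inr ⟨e, he, Finset.mem_image.mpr ⟨x, hx, rfl⟩⟩
  have hUR1 : ∀ u ∈ U, (u : D) ∈ R1 := by
    intro u hu
    apply hX0R1
    rw [hX0, Finset.mem_union]
    exact Or.inr (Finset.mem_image.mpr ⟨u, hu, rfl⟩)
  have hhR1 : ∀ e ∈ E, ∀ e' ∈ E, ((hh e e' : Dˣ) : D) ∈ R1 := by
    intro e he e' he'
    apply hUR1
    rw [hU, Finset.mem_union, Finset.mem_union]
    exact Or.inl (Or.inl (Finset.mem_image.mpr ⟨(e, e'), Finset.mem_product.mpr ⟨he, he'⟩, rfl⟩))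
  have hhiR1 : ∀ e ∈ E, ∀ e' ∈ E, (((hh e e')⁻¹ : Dˣ) : D) ∈ R1 := by
    intro e he e' he'
    apply hUR1
    rw [hU, Finset.mem_union, Finset.mem_union]
    exact Or.inl (Or.inr (Finset.mem_image.mpr ⟨(e, e'), Finset.mem_product.mpr ⟨he, he'⟩, rfl⟩))
  have haR1 : ∀ e ∈ E, ∀ x ∈ R1, (e : D) * x * (e : D)⁻¹ ∈ R1 := by
    intro e' he'
    apply conj_adjoin_mem
    intro y hy
    rw [hY, Finset.mem_coe, Finset.mem_union, Finset.mem_biUnion] at hy
    rcases hy with hy | ⟨e, he, hy⟩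
    · exact hcjR1 e' he' y hy
    · rw [Finset.mem_image] at hy
      obtain ⟨x, hx, rfl⟩ := hy
      have e3 : (e' : D) * ((e : D) * x * (e : D)⁻¹) * (e' : D)⁻¹
          = ((hh e' e : Dˣ) : D) * (((m e' e : Dˣ) : D) * x * ((m e' e : Dˣ) : D)⁻¹)
            * (((hh e' e)⁻¹ : Dˣ) : D) := by
        have e4 : (e' : D) * (e : D) = ((hh e' e : Dˣ) : D) * ((m e' e : Dˣ) : D) := by
          rw [← Units.val_mul, hmul e' he' e he, Units.val_mul]
        have e5 : (e : D)⁻¹ * (e' : D)⁻¹
            = ((m e' e : Dˣ) : D)⁻¹ * (((hh e' e)⁻¹ : Dˣ) : D) := by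
          rw [← mul_inv_rev, e4, mul_inv_rev, Units.val_inv_eq_inv_val]
        calc (e' : D) * ((e : D) * x * (e : D)⁻¹) * (e' : D)⁻¹
            = ((e' : D) * (e : D)) * x * ((e : D)⁻¹ * (e' : D)⁻¹) := by simp only [mul_assoc]
          _ = _ := by rw [e4, e5]; simp only [mul_assoc]
      rw [e3]
      exact R1.mul_mem (R1.mul_mem (hhR1 e' he' e he) (hcjR1 _ (hmE e' he' e he) x hx))
        (hhiR1 e' he' e he)
  have hfg : (R1.toSubmodule * Submodule.span k (Units.val '' (E : Set Dˣ))).FG := by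
    apply hR1fg.mul
    rw [← Finset.coe_image]
    exact Submodule.fg_span (Finset.finite_toSet _)
  refine hfg.of_le (le_trans ?_ (adjoin_le_mul_span R1 E haR1 (hbR R1 hhR1) (hcR R1 (hUR1 _ (by
    rw [hU, Finset.mem_union]; exact Or.inr (Finset.mem_singleton.mpr rfl))))))
  have : Algebra.adjoin k (T : Set D)
      ≤ Algebra.adjoin k ((R1 : Set D) ∪ Units.val '' (E : Set Dˣ)) := by
    apply Algebra.adjoin_le
    intro t ht
    have h2 := htX t ht
    have h3 : Submodule.span k ((X t : Set D) * (X' t : Set D))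
        ≤ (Algebra.adjoin k ((R1 : Set D) ∪ Units.val '' (E : Set Dˣ))).toSubmodule := by
      rw [Submodule.span_le]
      rintro _ ⟨x, hx, q, hq, rfl⟩
      apply Subalgebra.mul_mem
      · apply Algebra.subset_adjoin
        left
        apply hX0R1
        rw [hX0, Finset.mem_union, Finset.mem_biUnion]
        exact Or.inl ⟨t, ht, hx⟩
      · have h4 : Submodule.span k (Units.val '' (E : Set Dˣ))
            ≤ (Algebra.adjoin k ((R1 : Set D) ∪ Units.val '' (E : Set Dˣ))).toSubmodule := by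
          rw [Submodule.span_le]
          intro z hz
          exact Algebra.subset_adjoin (Or.inr hz)
        exact h4 (hX' t ht hq)
    exact h3 h2
  exact this

end Vale.Agent.P199
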