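import Vale.Agent.P199.Cyclic

namespace Vale.Agent.P199

open Finset Pointwise
open scoped commutatorElement

variable {k D : Type*} [Field k] [DivisionRing D] [Algebra k D]

/-- The `k`-subalgebra of `D` generated by a subgroup of the unit group. -/
def galg (k : Type*) {D : Type*} [Field k] [DivisionRing D] [Algebra k D] (H : Subgroup Dˣ) :
    Subalgebra k D :=
  Algebra.adjoin k (Units.val '' (H : Set Dˣ))

lemma mem_galg {H : Subgroup Dˣ} {u : Dˣ} (hu : u ∈ H) : (u : D) ∈ galg k H :=
  Algebra.subset_adjoin ⟨u, hu, rfl⟩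

lemma galg_mono {H K : Subgroup Dˣ} (h : H ≤ K) : galg k H ≤ galg k K :=
  Algebra.adjoin_mono (Set.image_mono h)

lemma sub_inv_mem [Algebra.IsAlgebraic k D] (R : Subalgebra k D) : ∀ x ∈ R, x⁻¹ ∈ R :=
  fun x hx => (Algebra.IsIntegral.isIntegral (R := k) x).inv_mem hx

lemma galg_conj {H : Subgroup Dˣ} {g : Dˣ} (hg : ∀ h ∈ H, g * h * g⁻¹ ∈ H) :
    ∀ x ∈ galg k H, (g : D) * x * (g : D)⁻¹ ∈ galg k H := by
  have hg0 : (g : D) ≠ 0 := g.ne_zero
  intro x hx
  induction hx using Algebra.adjoin_induction with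
  | mem y hy =>
    obtain ⟨h, hh, rfl⟩ := hy
    have := mem_galg (k := k) (hg h hh)
    simpa using this
  | algebraMap c =>
    rw [← Algebra.commutes, mul_assoc, mul_inv_cancel₀ hg0, mul_one]
    exact Subalgebra.algebraMap_mem _ c
  | add a b _ _ iha ihb =>
    rw [mul_add, add_mul]
    exact Subalgebra.add_mem _ iha ihb
  | mul a b _ _ iha ihb =>
    have : (g : D) * (a * b) * (g : D)⁻¹ = (g * a * (g : D)⁻¹) * (g * b * (g : D)⁻¹) := by
      rw [mul_assoc ((g : D) * a), ← mul_assoc (g : D)⁻¹, ← mul_assoc (g : D)⁻¹,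
        inv_mul_cancel₀ hg0, one_mul]
      simp only [mul_assoc]
    rw [this]
    exact Subalgebra.mul_mem _ iha ihb

lemma galg_sup_zpowers_le [Algebra.IsAlgebraic k D] (H : Subgroup Dˣ) (g : Dˣ) :
    galg k (H ⊔ Subgroup.zpowers g) ≤ Algebra.adjoin k ((galg k H : Set D) ∪ {(g : D)}) := by
  apply Algebra.adjoin_le
  rintro _ ⟨u, hu, rfl⟩
  have hu' : u ∈ Subgroup.closure ((H : Set Dˣ) ∪ {g}) := by
    rw [Subgroup.closure_union, Subgroup.closure_eq, ← Subgroup.zpowers_eq_closure]
    exact hu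
  induction hu' using Subgroup.closure_induction with
  | mem x hx =>
    rcases hx with hx | hx
    · exact Algebra.subset_adjoin (Or.inl (mem_galg hx))
    · rw [Set.mem_singleton_iff] at hx
      subst hx
      exact Algebra.subset_adjoin (Or.inr rfl)
  | one => simp
  | mul x y _ _ hx hy =>
    rw [Units.val_mul]
    exact Subalgebra.mul_mem _ (hx (by
      rw [← Subgroup.closure_eq H, Subgroup.zpowers_eq_closure, ← Subgroup.closure_union]
      assumption)) (hy (by
      rw [← Subgroup.closure_eq H, Subgroup.zpowers_eq_closure, ← Subgroup.closure_union]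
      assumption))
  | inv x _ hx =>
    rw [Units.val_inv_eq_inv_val]
    exact sub_inv_mem _ _ (hx (by
      rw [← Subgroup.closure_eq H, Subgroup.zpowers_eq_closure, ← Subgroup.closure_union]
      assumption))

/-- one cyclic step on the level of groups -/
lemma locFin_galg_step [Algebra.IsAlgebraic k D] (H : Subgroup Dˣ) (g : Dˣ)
    (hg : ∀ h ∈ H, g * h * g⁻¹ ∈ H) (hg' : ∀ h ∈ H, g⁻¹ * h * g ∈ H)
    (hH : LocFin (galg k H)) : LocFin (galg k (H ⊔ Subgroup.zpowers g)) := by
  refine LocFin.mono (galg_sup_zpowers_le H g) ?_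
  refine locFin_adjoin (galg k H) (sub_inv_mem _) hH g.ne_zero
    (Algebra.IsIntegral.isIntegral _) (galg_conj hg) ?_
  intro x hx
  have := galg_conj (k := k) (H := H) (g := g⁻¹) (by simpa using hg') x hx
  simpa using this

/-- finitely many steps -/
lemma locFin_galg_finset [Algebra.IsAlgebraic k D] {H G : Subgroup Dˣ} (hHG : H ≤ G)
    (hcomm : ⁅G, G⁆ ≤ H) (hH : LocFin (galg k H)) (E : Finset Dˣ) (hE : (E : Set Dˣ) ⊆ G) :
    LocFin (galg k (H ⊔ Subgroup.closure (E : Set Dˣ))) := by
  classical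
  induction E using Finset.induction_on with
  | empty => simpa using hH
  | insert g E _ ih =>
    have hgG : g ∈ G := hE (by simp)
    have hEG : (E : Set Dˣ) ⊆ G := fun x hx => hE (by simp [hx])
    have ih' := ih hEG
    set K := H ⊔ Subgroup.closure (E : Set Dˣ) with hK
    have hKG : K ≤ G := sup_le hHG ((Subgroup.closure_le G).mpr hEG)
    have hHK : H ≤ K := le_sup_left
    have e : H ⊔ Subgroup.closure ((insert g E : Finset Dˣ) : Set Dˣ) = K ⊔ Subgroup.zpowers g := by
      rw [Finset.coe_insert, Set.insert_eq, Subgroup.closure_union, ← Subgroup.zpowers_eq_closure,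
        hK, sup_assoc, sup_comm (Subgroup.zpowers g)]
    rw [e]
    apply locFin_galg_step K g _ _ ih'
    · intro h hh
      have h1 : ⁅g, h⁆ ∈ ⁅G, G⁆ := Subgroup.commutator_mem_commutator hgG (hKG hh)
      have h2 : g * h * g⁻¹ = ⁅g, h⁆ * h := by
        rw [commutatorElement_def]; group
      rw [h2]
      exact K.mul_mem (hHK (hcomm h1)) hh
    · intro h hh
      have h1 : ⁅g⁻¹, h⁆ ∈ ⁅G, G⁆ :=
        Subgroup.commutator_mem_commutator (G.inv_mem hgG) (hKG hh)
      have h2 : g⁻¹ * h * g = ⁅g⁻¹, h⁆ * h := by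
        rw [commutatorElement_def]; group
      rw [h2]
      exact K.mul_mem (hHK (hcomm h1)) hh

/-- every element of `adjoin k S` lies in `adjoin k S0` for a finite `S0 ⊆ S` -/
lemma exists_finset_adjoin {α : Type*} (f : α → D) (S : Set α) {x : D}
    (hx : x ∈ Algebra.adjoin k (f '' S)) :
    ∃ E : Finset α, (E : Set α) ⊆ S ∧ x ∈ Algebra.adjoin k (f '' (E : Set α)) := by
  classical
  induction hx using Algebra.adjoin_induction with
  | mem y hy =>
    obtain ⟨a, ha, rfl⟩ := hy
    exact ⟨{a}, by simpa using ha, Algebra.subset_adjoin ⟨a, by simp, rfl⟩⟩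
  | algebraMap c => exact ⟨∅, by simp, Subalgebra.algebraMap_mem _ c⟩
  | add a b _ _ iha ihb =>
    obtain ⟨E1, h1, h1'⟩ := iha
    obtain ⟨E2, h2, h2'⟩ := ihb
    refine ⟨E1 ∪ E2, by rw [Finset.coe_union]; exact Set.union_subset h1 h2, ?_⟩
    apply Subalgebra.add_mem
    · exact Algebra.adjoin_mono (Set.image_mono (by rw [Finset.coe_union]; exact Set.subset_union_left)) h1'
    · exact Algebra.adjoin_mono (Set.image_mono (by rw [Finset.coe_union]; exact Set.subset_union_right)) h2'
  | mul a b _ _ iha ihb =>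
    obtain ⟨E1, h1, h1'⟩ := iha
    obtain ⟨E2, h2, h2'⟩ := ihb
    refine ⟨E1 ∪ E2, by rw [Finset.coe_union]; exact Set.union_subset h1 h2, ?_⟩
    apply Subalgebra.mul_mem
    · exact Algebra.adjoin_mono (Set.image_mono (by rw [Finset.coe_union]; exact Set.subset_union_left)) h1'
    · exact Algebra.adjoin_mono (Set.image_mono (by rw [Finset.coe_union]; exact Set.subset_union_right)) h2'

/-- local finiteness of `galg` is a local property of the group -/
lemma locFin_galg_of_local {G : Subgroup Dˣ}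
    (h : ∀ E : Finset Dˣ, (E : Set Dˣ) ⊆ G → ∃ K : Subgroup Dˣ, (E : Set Dˣ) ⊆ K ∧
      LocFin (galg k K)) : LocFin (galg k G) := by
  classical
  intro T hT
  have h1 : ∀ t ∈ T, ∃ E : Finset Dˣ, (E : Set Dˣ) ⊆ G ∧
      t ∈ Algebra.adjoin k (Units.val '' (E : Set Dˣ)) :=
    fun t ht => exists_finset_adjoin Units.val _ (hT ht)
  choose! E hE htE using h1
  obtain ⟨K, hK, hLF⟩ := h (T.biUnion E) (by
    intro x hx
    rw [Finset.mem_coe, Finset.mem_biUnion] at hx
    obtain ⟨t, ht, hx⟩ := hx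
    exact hE t ht hx)
  apply hLF T
  intro t ht
  refine Algebra.adjoin_mono (Set.image_mono ?_) (htE t ht)
  intro x hx
  apply hK
  rw [Finset.mem_coe, Finset.mem_biUnion]
  exact ⟨t, ht, hx⟩

/-- **Abelian extensions preserve local finiteness.** -/
theorem locFin_galg_abelian_ext [Algebra.IsAlgebraic k D] {H G : Subgroup Dˣ} (hHG : H ≤ G)
    (hcomm : ⁅G, G⁆ ≤ H) (hH : LocFin (galg k H)) : LocFin (galg k G) :=
  locFin_galg_of_local fun E hE =>
    ⟨H ⊔ Subgroup.closure (E : Set Dˣ),
      fun _ hx => (le_sup_right : Subgroup.closure (E : Set Dˣ) ≤ _) (Subgroup.subset_closure hx),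
      locFin_galg_finset hHG hcomm hH E hE⟩

lemma locFin_galg_bot : LocFin (galg k (⊥ : Subgroup Dˣ)) := by
  intro T hT
  have h1 : galg k (⊥ : Subgroup Dˣ) = ⊥ := by
    unfold galg
    rw [eq_bot_iff]
    apply Algebra.adjoin_le
    rintro _ ⟨u, hu, rfl⟩
    have : u = 1 := by simpa using hu
    subst this
    simp
  have h2 : Algebra.adjoin k (T : Set D) ≤ ⊥ := by
    rw [← h1]; exact Algebra.adjoin_le hT
  have h3 : ((⊥ : Subalgebra k D)).toSubmodule.FG := Subalgebra.fg_bot_toSubmodule
  exact h3.of_le h2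

/-- the derived series of a subgroup, computed inside the ambient group -/
def dser {Γ : Type*} [Group Γ] (G : Subgroup Γ) : ℕ → Subgroup Γ
  | 0 => G
  | n + 1 => ⁅dser G n, dser G n⁆

lemma dser_succ' {Γ : Type*} [Group Γ] (G : Subgroup Γ) (n : ℕ) :
    dser G (n + 1) = dser ⁅G, G⁆ n := by
  induction n with
  | zero => rfl
  | succ n ih =>
    show ⁅dser G (n + 1), dser G (n + 1)⁆ = ⁅dser ⁅G, G⁆ n, dser ⁅G, G⁆ n⁆
    rw [ih]

lemma map_derivedSeries_subtype {Γ : Type*} [Group Γ] (G : Subgroup Γ) (n : ℕ) :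
    (derivedSeries G n).map G.subtype = dser G n := by
  induction n with
  | zero =>
    rw [derivedSeries_zero, ← MonoidHom.range_eq_map, Subgroup.range_subtype]
    rfl
  | succ n ih =>
    rw [derivedSeries_succ, Subgroup.map_commutator, ih]
    rfl

theorem locFin_galg_of_dser [Algebra.IsAlgebraic k D] (n : ℕ) :
    ∀ G : Subgroup Dˣ, dser G n = ⊥ → LocFin (galg k G) := by
  induction n with
  | zero =>
    intro G hG
    have : G = ⊥ := hG
    rw [this]
    exact locFin_galg_bot
  | succ n ih =>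
    intro G hG
    rw [dser_succ'] at hG
    exact locFin_galg_abelian_ext (Subgroup.commutator_le_self G) le_rfl (ih _ hG)

/-- **Solvable subgroups of the unit group of an algebraic division algebra generate locally
finite-dimensional subalgebras.** -/
theorem locFin_galg_of_isSolvable [Algebra.IsAlgebraic k D] (G : Subgroup Dˣ)
    [hG : Group.IsSolvable G] : LocFin (galg k G) := by
  obtain ⟨n, hn⟩ := hG
  apply locFin_galg_of_dser n
  rw [← map_derivedSeries_subtype, hn, Subgroup.map_bot]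

end Vale.Agent.P199
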