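import Mathlib

namespace Vale.Agent.P199

open Finset

variable {k D : Type*} [Field k] [DivisionRing D] [Algebra k D]

/-- conjugation by `s ^ j` -/
def cj (s : D) (j : ℕ) (x : D) : D := s ^ j * x * (s ^ j)⁻¹

lemma cj_zero (s x : D) : cj s 0 x = x := by simp [cj]

lemma cj_succ (s : D) (j : ℕ) (x : D) : cj s (j + 1) x = s * cj s j x * s⁻¹ := by
  unfold cj
  rw [pow_succ', mul_inv_rev]
  simp only [mul_assoc]

lemma cj_mem {R : Subalgebra k D} {s : D} (hn : ∀ x ∈ R, s * x * s⁻¹ ∈ R) (j : ℕ) {x : D}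
    (hx : x ∈ R) : cj s j x ∈ R := by
  induction j with
  | zero => rwa [cj_zero]
  | succ j ih => rw [cj_succ]; exact hn _ ih

lemma cj_mul_pow {s : D} (hs : s ≠ 0) (j : ℕ) (x : D) : cj s j x * s ^ j = s ^ j * x := by
  unfold cj
  rw [mul_assoc, inv_mul_cancel₀ (pow_ne_zero j hs), mul_one]

/-- inverse conjugation stays in `R` -/
lemma icj_mem {R : Subalgebra k D} {s : D} (hn' : ∀ x ∈ R, s⁻¹ * x * s ∈ R) (j : ℕ) {x : D}
    (hx : x ∈ R) : (s ^ j)⁻¹ * x * s ^ j ∈ R := by
  induction j with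
  | zero => simpa using hx
  | succ j ih =>
    have := hn' _ ih
    rw [pow_succ, mul_inv_rev]
    simpa only [mul_assoc] using this

/-- The relation predicate: a monic left `R`-relation of degree `d` for `s`. -/
def Rel (R : Subalgebra k D) (s : D) (d : ℕ) : Prop :=
  ∃ c : ℕ → D, (∀ j, c j ∈ R) ∧ c d = 1 ∧ ∑ j ∈ range (d + 1), c j * s ^ j = 0

lemma exists_rel (R : Subalgebra k D) {s : D} (hs : IsIntegral k s) : ∃ d, Rel R s d := by
  obtain ⟨p, hp, hps⟩ := hs
  refine ⟨p.natDegree, fun j => algebraMap k D (p.coeff j), fun j => R.algebraMap_mem _, ?_, ?_⟩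
  · show algebraMap k D (p.coeff p.natDegree) = 1
    rw [Polynomial.coeff_natDegree, hp.leadingCoeff, map_one]
  · rw [Polynomial.eval₂_eq_sum_range] at hps
    exact hps

lemma indep_of_min {R : Subalgebra k D} (hinv : ∀ x ∈ R, x⁻¹ ∈ R) {s : D} {d : ℕ}
    (hmin : ∀ m < d, ¬ Rel R s m) (e : ℕ → D) (he : ∀ j, e j ∈ R) :
    ∀ m ≤ d, ∑ j ∈ range m, e j * s ^ j = 0 → ∀ j < m, e j = 0 := by
  intro m
  induction m with
  | zero => intro _ _ j hj; omega
  | succ m ih =>
    intro hm hsum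
    have hem : e m = 0 := by
      by_contra hne
      apply hmin m (by omega)
      refine ⟨fun j => (e m)⁻¹ * e j, fun j => R.mul_mem (hinv _ (he m)) (he j),
        inv_mul_cancel₀ hne, ?_⟩
      simp only [mul_assoc]
      rw [← Finset.mul_sum, hsum, mul_zero]
    rw [Finset.sum_range_succ, hem, zero_mul, add_zero] at hsum
    intro j hj
    rcases Nat.lt_succ_iff_lt_or_eq.mp hj with h | h
    · exact ih (by omega) hsum j h
    · rw [h, hem]

/-- **X-inner lemma.** If `s` is integral over `k` and normalises the division subalgebra `R`,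
then some positive power of `s` acts on `R` as an inner automorphism of `R`. -/
theorem xinner (R : Subalgebra k D) (hinv : ∀ x ∈ R, x⁻¹ ∈ R) {s : D} (hs0 : s ≠ 0)
    (hs : IsIntegral k s) (hn : ∀ x ∈ R, s * x * s⁻¹ ∈ R) (hn' : ∀ x ∈ R, s⁻¹ * x * s ∈ R) :
    ∃ n : ℕ, 1 ≤ n ∧ ∃ r ∈ R, r ≠ 0 ∧ ∀ x ∈ R, cj s n x = r * x * r⁻¹ := by
  classical
  have hex := exists_rel R hs
  set d := Nat.find hex with hd
  obtain ⟨c, hcR, hcd, hsum⟩ := Nat.find_spec hex
  have hmin : ∀ m < d, ¬ Rel R s m := fun m hm => Nat.find_min hex hm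
  -- key identity
  have key : ∀ x ∈ R, ∀ j < d, c j * cj s j x = cj s d x * c j := by
    intro x hx
    have h1 : ∑ j ∈ range (d + 1), (c j * cj s j x - cj s d x * c j) * s ^ j = 0 := by
      have e1 : ∑ j ∈ range (d + 1), (c j * cj s j x - cj s d x * c j) * s ^ j
          = (∑ j ∈ range (d + 1), c j * s ^ j) * x
            - cj s d x * ∑ j ∈ range (d + 1), c j * s ^ j := by
        rw [Finset.sum_mul, Finset.mul_sum, ← Finset.sum_sub_distrib]
        apply Finset.sum_congr rfl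
        intro j _
        rw [sub_mul, mul_assoc, cj_mul_pow hs0, mul_assoc, mul_assoc]
      rw [e1, hsum, zero_mul, mul_zero, sub_zero]
    rw [Finset.sum_range_succ, hcd, one_mul, mul_one, sub_self, zero_mul, add_zero] at h1
    have := indep_of_min hinv hmin (fun j => c j * cj s j x - cj s d x * c j)
      (fun j => R.sub_mem (R.mul_mem (hcR j) (cj_mem hn j hx))
        (R.mul_mem (cj_mem hn d hx) (hcR j))) d le_rfl h1
    intro j hj
    exact sub_eq_zero.mp (this j hj)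
  -- some lower coefficient is nonzero
  have hex2 : ∃ j < d, c j ≠ 0 := by
    by_contra hcon
    push Not at hcon
    rw [Finset.sum_range_succ, hcd, one_mul] at hsum
    rw [Finset.sum_eq_zero (fun j hj => by rw [hcon j (Finset.mem_range.mp hj), zero_mul]),
      zero_add] at hsum
    exact pow_ne_zero d hs0 hsum
  obtain ⟨j, hjd, hcj⟩ := hex2
  refine ⟨d - j, by omega, c j, hcR j, hcj, ?_⟩
  intro y hy
  have hx : (s ^ j)⁻¹ * y * s ^ j ∈ R := icj_mem hn' j hy
  have h2 := key _ hx j hjd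
  have hsj : s ^ j ≠ 0 := pow_ne_zero j hs0
  have e1 : cj s j ((s ^ j)⁻¹ * y * s ^ j) = y := by
    unfold cj
    rw [mul_assoc, mul_assoc, mul_assoc, mul_inv_cancel₀ hsj, mul_one, ← mul_assoc,
      mul_inv_cancel₀ hsj, one_mul]
  have e2 : cj s d ((s ^ j)⁻¹ * y * s ^ j) = cj s (d - j) y := by
    unfold cj
    have hdj : s ^ d = s ^ (d - j) * s ^ j := by rw [← pow_add]; congr 1; omega
    rw [hdj, mul_inv_rev]
    have : s ^ (d - j) * s ^ j * ((s ^ j)⁻¹ * y * s ^ j) * ((s ^ j)⁻¹ * (s ^ (d - j))⁻¹)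
        = s ^ (d - j) * (s ^ j * (s ^ j)⁻¹) * y * (s ^ j * (s ^ j)⁻¹) * (s ^ (d - j))⁻¹ := by
      simp only [mul_assoc]
    rw [this, mul_inv_cancel₀ hsj, mul_one, mul_one]
  rw [e1, e2] at h2
  rw [h2, mul_assoc, mul_inv_cancel₀ hcj, mul_one]

end Vale.Agent.P199
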